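import Mathlib.MeasureTheory.Constructions.BorelSpace.Metric
import Mathlib.Analysis.SpecialFunctions.Pow.Real
import Mathlib.Topology.Order.IntermediateValue

/-!
# Fibres of Hölder maps which do not increase the volume are points
-/

open Metric Set Topology MeasureTheory

namespace Vale.Agent.P260.H335

variable {M N : Type*} [MetricSpace M] [MetricSpace N] [MeasurableSpace M] [BorelSpace M]
  [MeasurableSpace N]

/-- Disjoint balls along a connected fibre. -/
theorem ball_sum {μ : Measure M} {F : Set M} (hF : IsPreconnected F) {a b : M} (ha : a ∈ F)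
    (hb : b ∈ F) {ρ m : ℝ} (hρ : 0 < ρ) (hm : ∀ x ∈ F, ENNReal.ofReal m ≤ μ (ball x ρ))
    {U : Set M} (hU : ∀ x ∈ F, ball x ρ ⊆ U) :
    ENNReal.ofReal (dist a b / (2 * ρ) * m) ≤ μ U := by
  have h2ρ : 0 < 2 * ρ := by linarith
  set k : ℕ := ⌊dist a b / (2 * ρ)⌋₊ with hk
  have hkD : ∀ i ∈ Finset.range (k + 1), 2 * ρ * (i : ℝ) ∈ Icc (dist a a) (dist a b) := by
    intro i hi
    rw [Finset.mem_range, Nat.lt_succ_iff] at hi
    refine ⟨by rw [dist_self]; positivity, ?_⟩
    have h1 : (k : ℝ) ≤ dist a b / (2 * ρ) := Nat.floor_le (by positivity)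
    have h2 : (i : ℝ) ≤ dist a b / (2 * ρ) := le_trans (by exact_mod_cast hi) h1
    rw [le_div_iff₀ h2ρ] at h2
    linarith
  have hex : ∀ i : ℕ, ∃ x, i ∈ Finset.range (k + 1) → x ∈ F ∧ dist a x = 2 * ρ * (i : ℝ) := by
    intro i
    by_cases hi : i ∈ Finset.range (k + 1)
    · obtain ⟨x, hx, hx'⟩ := hF.intermediate_value ha hb
        (f := fun x => dist a x) (by fun_prop) (hkD i hi)
      exact ⟨x, fun _ => ⟨hx, hx'⟩⟩
    · exact ⟨a, fun h => absurd h hi⟩
  choose x hx using hex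
  have hdisj : (Finset.range (k + 1) : Set ℕ).PairwiseDisjoint fun i => ball (x i) ρ := by
    intro i hi j hj hij
    refine ball_disjoint_ball ?_
    have h1 := (hx i hi).2
    have h2 := (hx j hj).2
    have h3 : |dist a (x i) - dist a (x j)| ≤ dist (x i) (x j) := by
      rw [abs_le]
      constructor
      · have := dist_triangle a (x i) (x j)
        linarith
      · have := dist_triangle a (x j) (x i)
        rw [dist_comm (x j) (x i)] at this
        linarith
    refine le_trans ?_ h3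
    rw [h1, h2, ← mul_sub, abs_mul, abs_of_pos h2ρ]
    have h4 : (1 : ℝ) ≤ |(i : ℝ) - j| := by
      have h5 : ((i : ℤ) - j) ≠ 0 := by
        intro h
        exact hij (by exact_mod_cast (sub_eq_zero.1 h))
      have h6 : (1 : ℤ) ≤ |(i : ℤ) - j| := Int.one_le_abs h5
      exact_mod_cast h6
    nlinarith
  have h1 : μ (⋃ i ∈ Finset.range (k + 1), ball (x i) ρ) =
      ∑ i ∈ Finset.range (k + 1), μ (ball (x i) ρ) :=
    measure_biUnion_finset hdisj fun i _ => measurableSet_ball
  have h2 : ∑ _i ∈ Finset.range (k + 1), ENNReal.ofReal m ≤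
      ∑ i ∈ Finset.range (k + 1), μ (ball (x i) ρ) :=
    Finset.sum_le_sum fun i hi => hm _ (hx i hi).1
  have h3 : (⋃ i ∈ Finset.range (k + 1), ball (x i) ρ) ⊆ U :=
    iUnion₂_subset fun i hi => hU _ (hx i hi).1
  refine le_trans ?_ (h2.trans (h1 ▸ measure_mono h3))
  rw [Finset.sum_const, Finset.card_range, nsmul_eq_mul]
  rcases le_or_gt m 0 with hm0 | hm0
  · rw [ENNReal.ofReal_of_nonpos (mul_nonpos_of_nonneg_of_nonpos (by positivity) hm0)]
    exact bot_le
  · rw [← ENNReal.ofReal_natCast, ← ENNReal.ofReal_mul (by positivity)]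
    refine ENNReal.ofReal_le_ofReal (mul_le_mul_of_nonneg_right ?_ hm0.le)
    push_cast
    exact (Nat.lt_floor_add_one _).le

/-- A Hölder map with connected fibres which does not increase the volume of the preimages of
balls is injective, if balls are not too small in the source and not too large in the target. -/
theorem inj_of_ball {μ : Measure M} {ν : Measure N} {f : M → N}
    (hconn : ∀ y, IsPreconnected (f ⁻¹' {y}))
    (hle : ∀ y r, 0 < r → μ (f ⁻¹' closedBall y (r / 2)) ≤ ν (closedBall y r))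
    {c s α r₀ L : ℝ} (hc : 0 < c) (hα : 0 < α) (hr₀ : 0 < r₀) (hL : 0 ≤ L)
    (hlow : ∀ x r, 0 < r → r < r₀ → ENNReal.ofReal (c * r ^ s) ≤ μ (ball x r))
    (hhol : ∀ x x', dist (f x) (f x') ≤ L * dist x x' ^ α)
    (hup : ∀ y, ∀ δ > 0, ∃ r₁ > 0, ∀ r, 0 < r → r < r₁ →
      ν (closedBall y r) ≤ ENNReal.ofReal (δ * r ^ ((s - 1) / α))) : Function.Injective f := by
  intro a b hab
  by_contra hne
  have hD : 0 < dist a b := dist_pos.2 hne
  set L' : ℝ := 2 * (L + 1) with hL'
  have hL'0 : 0 < L' := by linarith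
  set δ : ℝ := dist a b * c / (4 * L' ^ ((s - 1) / α)) with hδ
  have hδ0 : 0 < δ := by positivity
  obtain ⟨r₁, hr₁, hup1⟩ := hup (f b) δ hδ0
  set ρ : ℝ := min (r₀ / 2) ((r₁ / (2 * L')) ^ α⁻¹) with hρ
  have hρ0 : 0 < ρ := lt_min (by linarith) (by positivity)
  have hρr : ρ < r₀ := (min_le_left _ _).trans_lt (by linarith)
  have hρα : ρ ^ α ≤ r₁ / (2 * L') := by
    calc ρ ^ α ≤ ((r₁ / (2 * L')) ^ α⁻¹) ^ α :=
          Real.rpow_le_rpow hρ0.le (min_le_right _ _) hα.le
      _ = r₁ / (2 * L') := by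
          rw [← Real.rpow_mul (by positivity), inv_mul_cancel₀ hα.ne', Real.rpow_one]
  have hρα0 : 0 < ρ ^ α := by positivity
  set r : ℝ := L' * ρ ^ α with hr
  have hr0 : 0 < r := by positivity
  have hrr : r < r₁ := by
    have : L' * ρ ^ α ≤ L' * (r₁ / (2 * L')) := mul_le_mul_of_nonneg_left hρα hL'0.le
    have h2 : L' * (r₁ / (2 * L')) = r₁ / 2 := by field_simp
    rw [h2] at this
    linarith
  have h1 := ball_sum (μ := μ) (hconn (f b)) (a := a) (b := b) hab rfl hρ0
    (m := c * ρ ^ s) (fun x _ => hlow x ρ hρ0 hρr) (U := f ⁻¹' closedBall (f b) (r / 2)) (by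
      intro x hx z hz
      have hx' : f x = f b := hx
      show f z ∈ closedBall (f b) (r / 2)
      rw [mem_closedBall, ← hx']
      refine (hhol z x).trans ?_
      have h3 : dist z x ^ α ≤ ρ ^ α := Real.rpow_le_rpow dist_nonneg (mem_ball.1 hz).le hα.le
      calc L * dist z x ^ α ≤ (L + 1) * ρ ^ α :=
            mul_le_mul (by linarith) h3 (by positivity) (by linarith)
        _ = r / 2 := by rw [hr, hL']; ring)
  have h2 := h1.trans ((hle _ _ hr0).trans (hup1 r hr0 hrr))
  rw [ENNReal.ofReal_le_ofReal_iff (by positivity)] at h2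
  have e1 : r ^ ((s - 1) / α) = L' ^ ((s - 1) / α) * ρ ^ (s - 1) := by
    rw [hr, Real.mul_rpow hL'0.le hρα0.le, ← Real.rpow_mul hρ0.le]
    congr 2
    field_simp
  have e2 : ρ ^ s = ρ * ρ ^ (s - 1) := by
    rw [Real.rpow_sub_one hρ0.ne']
    field_simp
  rw [e1, e2] at h2
  have hq : 0 < ρ ^ (s - 1) := by positivity
  have hw : 0 < L' ^ ((s - 1) / α) := by positivity
  have e3 : dist a b / (2 * ρ) * (c * (ρ * ρ ^ (s - 1))) = dist a b * c / 2 * ρ ^ (s - 1) := by
    field_simp
  have e4 : δ * (L' ^ ((s - 1) / α) * ρ ^ (s - 1)) = dist a b * c / 4 * ρ ^ (s - 1) := by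
    rw [hδ]
    field_simp
  rw [e3, e4] at h2
  have h5 : 0 < dist a b * c * ρ ^ (s - 1) := by positivity
  linarith

end Vale.Agent.P260.H335
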